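import Vale.Agent.P007.Main

namespace Vale.Agent.Results.P007.Composite

open Vale.Agent.P007 MeasureTheory Filter Topology
open scoped CompactlySupported

theorem result (m : ℕ) :
    (∀ C : ℝ, ∃ f : C_c(X (m + 1), ℝ), (∀ ν, IsHaarProb ν → 0 < ∫ x, f x ∂ν) ∧
      ∀ (K : Type) [Field K] [NumberField K] (o : Order K (m + 1))
        (σ : Fin (m + 1) ≃ (K →+* ℝ)), (∃ θ ∈ o.O, (∀ z : ℤ, θ ≠ z) ∧ ∀ j, |σ j θ| ≤ C) →
        (∀ x ∈ packet o σ, f x = 0) ∧ ∀ μ, IsPacketMeasure o σ μ → ∫ x, f x ∂μ = 0) ∧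
    (4 ≤ m + 1 → ¬(m + 1).Prime →
      ∃ (K : ℕ → Type) (_ : ∀ i, Field (K i)) (_ : ∀ i, NumberField (K i))
        (o : ∀ i, Order (K i) (m + 1)), (∀ i x, x ∈ (o i).O ↔ IsIntegral ℤ x) ∧
        (∀ i, Nonempty (Fin (m + 1) ≃ (K i →+* ℝ))) ∧
        Tendsto (fun i => |(o i).disc|) atTop atTop ∧
        ∃ f : C_c(X (m + 1), ℝ), ∀ σ : ∀ i, Fin (m + 1) ≃ (K i →+* ℝ),
          (∀ i, (packet (o i) (σ i)).Nonempty ∧ ∀ x ∈ packet (o i) (σ i), f x = 0) ∧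
          ∀ (ν : Measure (X (m + 1))) (μ : ℕ → Measure (X (m + 1))), IsHaarProb ν →
            (∀ i, IsPacketMeasure (o i) (σ i) (μ i)) →
            ¬Tendsto (fun i => ∫ x, f x ∂μ i) atTop (𝓝 (∫ x, f x ∂ν))) := by
  refine ⟨fun C => ?_, fun h4 hp => ?_⟩
  · obtain ⟨f, f1, f2⟩ := exists_test (m + 1) C
    exact ⟨f, f1, fun K _ _ o σ h =>
      ⟨f2 K o σ h, fun μ hμ => hμ.integral_zero f.continuous (f2 K o σ h)⟩⟩
  · obtain ⟨d, ⟨k, hk⟩, hd, hd'⟩ := Nat.exists_dvd_of_not_prime2 (by omega) hp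
    have hk2 : 2 ≤ k := by
      by_contra hn
      have : k = 0 ∨ k = 1 := by omega
      rcases this with rfl | rfl <;> omega
    obtain ⟨C, hC⟩ := exists_fields hd hk2
    choose K i1 i2 k1 k2 k3 θ t1 t2 t3 using hC
    choose o o1 o2 using fun i => exists_max (K i) ((k1 i).trans hk.symm)
    obtain ⟨f, f1, f2⟩ := exists_test (m + 1) C
    refine ⟨K, i1, i2, o, o1, fun i => exists_emb (K i) ((k1 i).trans hk.symm), ?_, f, fun σ => ?_⟩
    · refine tendsto_atTop_mono (fun i => ?_) tendsto_natCast_atTop_atTop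
      rw [o2]
      exact_mod_cast k3 i
    · have h0 := fun i => f2 (K i) (o i) (σ i) ⟨θ i, (o1 i _).2 (t1 i), t2 i, fun j => t3 i _⟩
      refine ⟨fun i => ⟨packet_nonempty _ _, h0 i⟩, fun ν μ hν hμ ht => ?_⟩
      have e : ∀ i, ∫ x, f x ∂μ i = 0 := fun i => (hμ i).integral_zero f.continuous (h0 i)
      simp only [e] at ht
      exact (f1 ν hν).ne (tendsto_nhds_unique tendsto_const_nhds ht)

end Vale.Agent.Results.P007.Composite
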